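import Vale.Agent.P180.R2.H667.O2.C
import Vale.Agent.P180.R2.H259.Oq.A1

/-!
P180: finite perfect groups with quotient `Ω(Q)` modulo scalars: the order of the centre is odd
(the version for `OmX`).
-/

set_option linter.all false

namespace Vale.Agent.P180.R2.H667.O2

open Subgroup Module Vale.Agent.P180.R2.H854 Vale.Agent.P180.R2.H259.Loc
  Vale.Agent.P180.R2.H259.Oq

variable {K : Type} [Field K] [Finite K]

theorem even_card_of_two (h2 : (2 : K) = 0) : Even (Nat.card K) := by
  haveI : Fintype K := Fintype.ofFinite K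
  obtain ⟨p, hpc⟩ := CharP.exists K
  obtain ⟨n, hp, hn⟩ := FiniteField.card K p
  rw [← Nat.card_eq_fintype_card] at hn
  have h3 : p ∣ 2 := by
    rw [← CharP.cast_eq_zero_iff K p]
    exact_mod_cast h2
  have h4 := (Nat.prime_dvd_prime_iff_eq hp Nat.prime_two).mp h3
  rw [hn, h4]
  exact Nat.even_pow.mpr ⟨even_two, n.ne_zero⟩

variable {E : Type} [AddCommGroup E] [Module K E] [Module.Finite K E]

/-- **Perfect groups with quotient `Ω(Q)` modulo scalars**, `|K| > 4` even: `|Z(L)|` is prime to
`|K|`. -/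
theorem coprime_OmX {Φ : HForm K E} {Q : E → K} (hq : QF Φ Q) (hK : 4 < Nat.card K)
    {X : Subgroup (SpecialLinearGroup K E)} (hX : OmX Q X)
    {L : Type} [Group L] [Finite L] (hL : commutator L = ⊤) (π : X →* L ⧸ center L)
    (hπ : Function.Surjective π)
    (hker : ∀ x : X, π x = 1 → x.1 ∈ center (SpecialLinearGroup K E)) :
    (Nat.card K).Coprime (Nat.card (center L)) :=
  coprime_center (even_card_of_two hq.two) hK Φ.add_left Φ.smul_left Φ.nondeg hq.add hq.smul
    (X := X) (fun g => hX g) hL π hπ hker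

end Vale.Agent.P180.R2.H667.O2
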