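import Vale.Agent.P180.R2.H589.Or.Chr

/-!
P180: quadratic forms: hyperbolic extensions, induction, ranks, the stabiliser of a singular line.
-/

set_option linter.all false

namespace Vale.Agent.P180.R2.H667.O2

open Subgroup Module
open LinearMap (BilinForm)
open Vale.Agent.P180.R2.H589.Sch
open Vale.Agent.P180.R2.H589.Sp (SpG mem_SpG WW BW BW_apply lv lv_apply lv_mul lv_one lv_inv oo
  oo_ne cj cj_apply cj_mem)
open Vale.Agent.P180.R2.H589.Or (Sm hypo hypo_apply hypo_sm splitE splitE_apply splitE_iso BW_sm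
  StO mem_StO bl lam bl_apply lam_val lam_spec lv_mem lv_St bl_lv lam_lv blF blF_apply lamF
  lamF_spec form_of thd)

section Basic

variable {K V : Type*} [Field K] [AddCommGroup V] [Module K V]

/-- nondegenerate quadratic forms -/
structure Qm (B : BilinForm K V) (Q : V → K) : Prop where
  add : ∀ x y, Q (x + y) = Q x + Q y + B x y
  smul : ∀ (c : K) x, Q (c • x) = c ^ 2 * Q x
  nd : ∀ x, (∀ y, B x y = 0) → x = 0

variable {B : BilinForm K V} {Q : V → K}

theorem Qm.symm (h : Qm B Q) (x y : V) : B y x = B x y := by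
  have h1 := h.add x y
  have h2 := h.add y x
  rw [add_comm] at h2
  linear_combination h1 - h2

theorem Qm.sm (h : Qm B Q) : Sm B := ⟨h.symm, h.nd⟩

theorem Qm.zero (h : Qm B Q) : Q 0 = 0 := by
  have := h.smul 0 0
  rw [zero_smul] at this
  rw [this]
  ring

theorem Qm.self (h : Qm B Q) (x : V) : B x x = 2 * Q x := by
  have h1 := h.add x x
  have h2 := h.smul 2 x
  rw [two_smul] at h2
  linear_combination h2 - h1

theorem Qm.exists_pair (h : Qm B Q) {x : V} (hx : x ≠ 0) (hs : Q x = 0) :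
    ∃ y, B x y = 1 ∧ Q y = 0 := by
  obtain ⟨y, hy⟩ := h.sm.exists_one hx
  have hxx : B x x = 0 := by rw [h.self, hs, mul_zero]
  refine ⟨y + (-Q y) • x, ?_, ?_⟩
  · rw [map_add, map_smul, hxx, smul_zero, add_zero, hy]
  · rw [h.add, h.smul, hs, map_smul, h.symm x y, hy, smul_eq_mul]
    ring

/-- the isometries of `Q` -/
def OQ (Q : V → K) : Subgroup (V ≃ₗ[K] V) where
  carrier := {g | ∀ x, Q (g x) = Q x}
  one_mem' := fun x => rfl
  mul_mem' := by
    intro g h hg hh x
    rw [LinearEquiv.mul_apply, hg, hh]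
  inv_mem' := by
    intro g hg x
    have h1 := hg (g⁻¹ x)
    rw [← h1]
    congr 1
    exact g.apply_symm_apply x

theorem mem_OQ {g : V ≃ₗ[K] V} : g ∈ OQ Q ↔ ∀ x, Q (g x) = Q x := Iff.rfl

theorem OQ_le (h : Qm B Q) : OQ Q ≤ SpG B := by
  intro g hg x y
  have h1 := h.add x y
  have h2 := h.add (g x) (g y)
  rw [← map_add, hg, hg, hg] at h2
  linear_combination h1 - h2

/-- the rank -/
noncomputable def rk (g : V ≃ₗ[K] V) : ℕ := finrank K (LinearMap.range ((g : V →ₗ[K] V) - 1))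

theorem rk_of {U : Type*} [AddCommGroup U] [Module K U] (g : V ≃ₗ[K] V) (ι : U →ₗ[K] V)
    (hι : Function.Injective ι) (h1 : ∀ x, ∃ u, g x - x = ι u) (h2 : ∀ u, ∃ x, g x - x = ι u) :
    rk g = finrank K U := by
  have h3 : LinearMap.range ((g : V →ₗ[K] V) - 1) = LinearMap.range ι := by
    apply le_antisymm
    · rintro _ ⟨x, rfl⟩
      obtain ⟨u, hu⟩ := h1 x
      exact ⟨u, hu.symm⟩
    · rintro _ ⟨u, rfl⟩
      obtain ⟨x, hx⟩ := h2 u
      exact ⟨x, hx⟩
  rw [rk, h3, LinearMap.finrank_range_of_inj hι]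

theorem rk_one : rk (1 : V ≃ₗ[K] V) = 0 := by
  have h1 : ((1 : V ≃ₗ[K] V) : V →ₗ[K] V) - 1 = 0 := by
    apply LinearMap.ext
    intro x
    exact sub_self x
  rw [rk, h1, LinearMap.range_zero, finrank_bot]

/-- the group `Ω(Q)` (isometries of even rank) -/
def Cl (Q : V → K) (X : Subgroup (V ≃ₗ[K] V)) : Prop :=
  ∀ g, g ∈ X ↔ g ∈ OQ Q ∧ Even (rk g)

theorem rk_le_of_small [Module.Finite K V] (hd : finrank K V ≤ 2) {g : V ≃ₗ[K] V}
    (he : Even (rk g)) {v : V} (hv : g v = v) (hv0 : v ≠ 0) : g = 1 := by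
  have h1 := LinearMap.finrank_range_add_finrank_ker ((g : V →ₗ[K] V) - 1)
  have h2 : 0 < finrank K (LinearMap.ker ((g : V →ₗ[K] V) - 1)) := by
    rw [Module.finrank_pos_iff]
    refine ⟨⟨⟨v, ?_⟩, 0, fun h => hv0 (congrArg Subtype.val h)⟩⟩
    rw [LinearMap.mem_ker]
    change g v - v = 0
    rw [hv, sub_self]
  have h3 : finrank K (LinearMap.range ((g : V →ₗ[K] V) - 1)) = 0 := by
    have h4 : Even (finrank K (LinearMap.range ((g : V →ₗ[K] V) - 1))) := he
    obtain ⟨k, hk⟩ := h4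
    omega
  rw [Submodule.finrank_eq_zero, LinearMap.range_eq_bot] at h3
  apply LinearEquiv.ext
  intro x
  have h4 := congrArg (fun f : V →ₗ[K] V => f x) h3
  have h5 : g x - x = 0 := h4
  exact sub_eq_zero.mp h5

end Basic

section Hyp

variable {K W : Type*} [Field K] [AddCommGroup W] [Module K W]

/-- the hyperbolic extension of a quadratic form -/
def hq (Q : W → K) (u : K × W × K) : K := u.1 * u.2.2 + Q u.2.1

theorem hq_apply (Q : W → K) (u : K × W × K) : hq Q u = u.1 * u.2.2 + Q u.2.1 := rfl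

variable {B : BilinForm K W} {Q : W → K} (hQ : Qm B Q)

include hQ in
theorem hq_qm : Qm (hypo B) (hq Q) := by
  refine ⟨fun x y => ?_, fun c x => ?_, (hypo_sm hQ.sm).nd⟩
  · rw [hq_apply, hq_apply, hq_apply, hypo_apply]
    have h1 : Q (x + y).2.1 = Q x.2.1 + Q y.2.1 + B x.2.1 y.2.1 := hQ.add _ _
    rw [h1]
    change (x.1 + y.1) * (x.2.2 + y.2.2) + _ = _
    ring
  · rw [hq_apply, hq_apply]
    have h1 : Q (c • x).2.1 = c ^ 2 * Q x.2.1 := hQ.smul _ _
    rw [h1]
    change (c * x.1) * (c * x.2.2) + _ = _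
    ring

end Hyp

/-- **Induction over the quadratic spaces.** -/
theorem q_ind {K : Type} [Field K]
    (P : ∀ (V : Type) [AddCommGroup V] [Module K V], (V → K) → Prop)
    (h0 : ∀ (V : Type) [AddCommGroup V] [Module K V] [Module.Finite K V] (B : BilinForm K V)
      (Q : V → K), Qm B Q → (∀ x, Q x = 0 → x = 0) → P V Q)
    (hs : ∀ (W : Type) [AddCommGroup W] [Module K W] [Module.Finite K W] (B : BilinForm K W)
      (Q : W → K), Qm B Q → P W Q → P (K × W × K) (hq Q))
    (hi : ∀ (V V' : Type) [AddCommGroup V] [Module K V] [AddCommGroup V'] [Module K V']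
      [Module.Finite K V] [Module.Finite K V'] (Q : V → K) (Q' : V' → K) (e : V ≃ₗ[K] V'),
      (∀ x, Q' (e x) = Q x) → P V Q → P V' Q')
    (V : Type) [AddCommGroup V] [Module K V] [Module.Finite K V] (B : BilinForm K V)
    (Q : V → K) (hQ : Qm B Q) : P V Q := by
  have key : ∀ (n : ℕ) (V : Type) [AddCommGroup V] [Module K V] [Module.Finite K V]
      (B : BilinForm K V) (Q : V → K), Qm B Q → finrank K V ≤ n → P V Q := by
    intro n
    induction n with
    | zero =>
      intro V _ _ _ B Q hQ hd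
      haveI : Subsingleton V := Module.finrank_zero_iff.mp (Nat.le_zero.mp hd)
      exact h0 V B Q hQ fun x _ => Subsingleton.elim _ _
    | succ n ih =>
      intro V _ _ _ B Q hQ hd
      by_cases hV : ∀ x, Q x = 0 → x = 0
      · exact h0 V B Q hQ hV
      · push Not at hV
        obtain ⟨o, ho, ho0⟩ := hV
        obtain ⟨o', h1, ho'⟩ := hQ.exists_pair ho0 ho
        have hoo : B o o = 0 := by rw [hQ.self, ho, mul_zero]
        have hoo' : B o' o' = 0 := by rw [hQ.self, ho', mul_zero]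
        have h3 : finrank K (WW B o o') ≤ n := by
          have h3 := (splitE hQ.sm hoo hoo' h1).finrank_eq
          rw [Module.finrank_prod, Module.finrank_prod, Module.finrank_self] at h3
          omega
        have hW : Qm (BW B o o') (fun x : WW B o o' => Q x) :=
          ⟨fun x y => hQ.add x y, fun c x => hQ.smul c x, (BW_sm hQ.sm hoo hoo' h1).nd⟩
        refine hi _ V (hq fun x : WW B o o' => Q x) Q (splitE hQ.sm hoo hoo' h1) (fun u => ?_)
          (hs _ _ _ hW (ih _ _ _ hW h3))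
        obtain ⟨a, ⟨x, hx1, hx2⟩, b⟩ := u
        rw [splitE_apply, hq_apply]
        have e1 : B (a • o + x) (b • o') = a * b := by
          rw [map_smul, map_add, LinearMap.add_apply, map_smul, LinearMap.smul_apply, h1,
            hQ.symm o' x, hx2]
          simp only [smul_eq_mul]
          ring
        have e2 : B (a • o) x = 0 := by
          rw [map_smul, LinearMap.smul_apply, hx1, smul_zero]
        change Q (a • o + x + b • o') = a * b + Q x
        rw [hQ.add, hQ.add, hQ.smul, hQ.smul, ho, ho', e1, e2]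
        ring
  exact key _ V B Q hQ le_rfl

/-- anisotropic quadratic spaces over finite fields of characteristic two -/
theorem aniso_le {K V : Type*} [Field K] [Finite K] [AddCommGroup V] [Module K V]
    [Module.Finite K V] {B : BilinForm K V} {Q : V → K} (h2 : (2 : K) = 0) (hQ : Qm B Q)
    (h0 : ∀ x, Q x = 0 → x = 0) : finrank K V ≤ 2 := by
  by_cases hV : ∃ v : V, v ≠ 0
  · obtain ⟨v, hv⟩ := hV
    have hQv : Q v ≠ 0 := fun h => hv (h0 v h)
    haveI : CharP K 2 := CharTwo.of_one_ne_zero_of_two_eq_zero one_ne_zero h2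
    have hsq : ∀ a : K, ∃ s : K, s ^ 2 = a := by
      intro a
      haveI := Fintype.ofFinite K
      obtain ⟨s, hs⟩ := FiniteField.isSquare_of_char_two (F := K) (ringChar.eq K 2) a
      exact ⟨s, by rw [hs, pow_two]⟩
    have hker : ∀ w, B v w = 0 → ∃ s : K, w = s • v := by
      intro w hw
      obtain ⟨s, hs⟩ := hsq (Q w / Q v)
      refine ⟨s, ?_⟩
      have h1 : Q (s • v + w) = 0 := by
        rw [hQ.add, hQ.smul, hs, map_smul, LinearMap.smul_apply, hw, smul_zero, add_zero,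
          div_mul_cancel₀ _ hQv]
        linear_combination (Q w) * h2
      have h3 := h0 _ h1
      have h4 : w = -(s • v) := eq_neg_of_add_eq_zero_right h3
      have h5 : s • v + s • v = 0 := by rw [← two_smul K, h2, zero_smul]
      rw [h4]
      exact (eq_neg_of_add_eq_zero_left h5).symm
    have h3 := LinearMap.finrank_range_add_finrank_ker (B v)
    have h4 : finrank K (LinearMap.ker (B v)) ≤ 1 := by
      have h5 : LinearMap.ker (B v) ≤ Submodule.span K {v} := by
        intro w hw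
        obtain ⟨s, rfl⟩ := hker w hw
        exact Submodule.smul_mem _ _ (Submodule.mem_span_singleton_self v)
      exact (Submodule.finrank_mono h5).trans (finrank_span_singleton hv).le
    have h5 : finrank K (LinearMap.range (B v)) ≤ 1 :=
      (Submodule.finrank_le _).trans (finrank_self K).le
    omega
  · push Not at hV
    haveI : Subsingleton V := ⟨fun x y => by rw [hV x, hV y]⟩
    rw [finrank_zero_of_subsingleton]
    omega

section Rad

variable {K W : Type*} [Field K] [AddCommGroup W] [Module K W]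

variable (B : BilinForm K W) (Q : W → K)

/-- elements of the radical -/
def qf (y : W) (u : K × W × K) : K × W × K :=
  (u.1 - B u.2.1 y - Q y * u.2.2, u.2.1 + u.2.2 • y, u.2.2)

variable {B Q}

theorem qf_qf (hQ : Qm B Q) (y y' : W) (u : K × W × K) :
    qf B Q y (qf B Q y' u) = qf B Q (y + y') u := by
  unfold qf
  refine Prod.ext ?_ (Prod.ext ?_ rfl)
  · change u.1 - B u.2.1 y' - Q y' * u.2.2 - B (u.2.1 + u.2.2 • y') y - Q y * u.2.2 =
      u.1 - B u.2.1 (y + y') - Q (y + y') * u.2.2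
    simp only [map_add, map_smul, LinearMap.add_apply, LinearMap.smul_apply, smul_eq_mul]
    rw [hQ.add, hQ.symm y y']
    ring
  · change u.2.1 + u.2.2 • y' + u.2.2 • y = u.2.1 + u.2.2 • (y + y')
    module

theorem qf_zero (hQ : Qm B Q) (u : K × W × K) : qf B Q 0 u = u := by
  unfold qf
  refine Prod.ext ?_ (Prod.ext ?_ rfl)
  · change u.1 - B u.2.1 0 - Q 0 * u.2.2 = u.1
    rw [map_zero, hQ.zero]
    ring
  · change u.2.1 + u.2.2 • (0 : W) = u.2.1
    rw [smul_zero, add_zero]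

/-- elements of the radical -/
def qe (hQ : Qm B Q) (y : W) : (K × W × K) ≃ₗ[K] (K × W × K) where
  toFun := qf B Q y
  map_add' := by
    intro u v
    unfold qf
    refine Prod.ext ?_ (Prod.ext ?_ rfl)
    · change u.1 + v.1 - B (u.2.1 + v.2.1) y - Q y * (u.2.2 + v.2.2) =
        u.1 - B u.2.1 y - Q y * u.2.2 + (v.1 - B v.2.1 y - Q y * v.2.2)
      simp only [map_add, LinearMap.add_apply]
      ring
    · change u.2.1 + v.2.1 + (u.2.2 + v.2.2) • y = u.2.1 + u.2.2 • y + (v.2.1 + v.2.2 • y)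
      module
  map_smul' := by
    intro a u
    unfold qf
    refine Prod.ext ?_ (Prod.ext ?_ rfl)
    · change a * u.1 - B (a • u.2.1) y - Q y * (a * u.2.2) =
        a * (u.1 - B u.2.1 y - Q y * u.2.2)
      simp only [map_smul, LinearMap.smul_apply, smul_eq_mul]
      ring
    · change a • u.2.1 + (a * u.2.2) • y = a • (u.2.1 + u.2.2 • y)
      module
  invFun := qf B Q (-y)
  left_inv := by
    intro u
    rw [qf_qf hQ, neg_add_cancel, qf_zero hQ]
  right_inv := by
    intro u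
    rw [qf_qf hQ, add_neg_cancel, qf_zero hQ]

variable (hQ : Qm B Q)

theorem qe_apply (y : W) (u : K × W × K) :
    qe hQ y u = (u.1 - B u.2.1 y - Q y * u.2.2, u.2.1 + u.2.2 • y, u.2.2) := rfl

theorem qe_mul (y y' : W) : qe hQ y * qe hQ y' = qe hQ (y + y') := by
  apply LinearEquiv.ext
  intro u
  exact qf_qf hQ y y' u

theorem qe_zero : qe hQ 0 = 1 := by
  apply LinearEquiv.ext
  intro u
  exact qf_zero hQ u

theorem qe_inv (y : W) : (qe hQ y)⁻¹ = qe hQ (-y) := by
  symm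
  apply eq_inv_of_mul_eq_one_left
  rw [qe_mul, neg_add_cancel, qe_zero]

theorem qe_pow (y : W) (n : ℕ) : (qe hQ y) ^ n = qe hQ ((n : K) • y) := by
  induction n with
  | zero => rw [pow_zero, Nat.cast_zero, zero_smul, qe_zero]
  | succ n ih => rw [pow_succ, ih, qe_mul, Nat.cast_succ, add_smul, one_smul]

theorem qe_pel {p : ℕ} [CharP K p] (y : W) : Pel p (qe hQ y) := by
  refine ⟨1, ?_⟩
  rw [pow_one, qe_pow, CharP.cast_eq_zero, zero_smul, qe_zero]

theorem qe_inj {y y' : W} (h : qe hQ y = qe hQ y') : y = y' := by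
  have h1 := congrArg (fun g : (K × W × K) ≃ₗ[K] (K × W × K) => (g (0, 0, 1)).2.1) h
  simp only [qe_apply, zero_add, one_smul] at h1
  exact h1

theorem qe_mem (y : W) : qe hQ y ∈ OQ (hq Q) := by
  intro u
  rw [qe_apply, hq_apply, hq_apply]
  change (u.1 - B u.2.1 y - Q y * u.2.2) * u.2.2 + Q (u.2.1 + u.2.2 • y) = _
  rw [hQ.add, hQ.smul, map_smul, smul_eq_mul]
  ring

theorem lvQ_mem {m : W ≃ₗ[K] W} (hm : m ∈ OQ Q) (l : Kˣ) : lv m l ∈ OQ (hq Q) := by
  intro u
  rw [lv_apply, hq_apply, hq_apply, hm]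
  have h1 : (l : K) * ((l⁻¹ : Kˣ) : K) = 1 := Units.mul_inv l
  linear_combination (u.1 * u.2.2) * h1

theorem lv_qe {m : W ≃ₗ[K] W} (hm : m ∈ OQ Q) (l : Kˣ) (y : W) :
    lv m l * qe hQ y * (lv m l)⁻¹ = qe hQ ((l : K) • m y) := by
  rw [mul_inv_eq_iff_eq_mul]
  apply LinearEquiv.ext
  intro u
  have h1 : (l : K) * ((l⁻¹ : Kˣ) : K) = 1 := Units.mul_inv l
  rw [LinearEquiv.mul_apply, LinearEquiv.mul_apply, qe_apply, lv_apply, lv_apply, qe_apply]
  refine Prod.ext ?_ (Prod.ext ?_ rfl)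
  · change (l : K) * (u.1 - B u.2.1 y - Q y * u.2.2) = (l : K) * u.1 -
      B (m u.2.1) ((l : K) • m y) - Q ((l : K) • m y) * (((l⁻¹ : Kˣ) : K) * u.2.2)
    rw [map_smul, hQ.smul, hm, mem_SpG.mp (OQ_le hQ hm), smul_eq_mul]
    linear_combination ((l : K) * Q y * u.2.2) * h1
  · change m (u.2.1 + u.2.2 • y) = m u.2.1 + (((l⁻¹ : Kˣ) : K) * u.2.2) • ((l : K) • m y)
    rw [map_add, map_smul, smul_smul]
    congr 2
    linear_combination (-u.2.2) * h1

theorem qe_St (y : W) : qe hQ y ∈ StO B := by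
  refine ⟨OQ_le (hq_qm hQ) (qe_mem hQ y), 1, ?_⟩
  rw [qe_apply]
  refine Prod.ext ?_ (Prod.ext ?_ ?_)
  · change (1 : K) - B 0 y - Q y * 0 = 1 * 1
    rw [map_zero, LinearMap.zero_apply]
    ring
  · change (0 : W) + (0 : K) • y = (1 : K) • (0 : W)
    rw [zero_smul, smul_zero, zero_add]
  · change (0 : K) = 1 * 0
    rw [mul_zero]

theorem exists_qe {g : StO B} (hg : (g : (K × W × K) ≃ₗ[K] (K × W × K)) ∈ OQ (hq Q))
    (h1 : bl B g = 1) (h3 : lam B g = 1) :
    ∃ y, (g : (K × W × K) ≃ₗ[K] (K × W × K)) = qe hQ y := by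
  obtain ⟨y, hy⟩ : ∃ y, y = ((g : (K × W × K) ≃ₗ[K] (K × W × K)) (0, 0, 1)).2.1 := ⟨_, rfl⟩
  obtain ⟨c, hc⟩ : ∃ c, c = ((g : (K × W × K) ≃ₗ[K] (K × W × K)) (0, 0, 1)).1 := ⟨_, rfl⟩
  have hl : lamF (g : (K × W × K) ≃ₗ[K] (K × W × K)) = 1 := congrArg Units.val h3
  have e3 : (g : (K × W × K) ≃ₗ[K] (K × W × K)) (0, 0, 1) = (c, y, 1) := by
    refine Prod.ext hc.symm (Prod.ext hy.symm ?_)
    have := thd g.2 (0, 0, 1)
    rwa [hl, one_mul] at this
  have e1 : (g : (K × W × K) ≃ₗ[K] (K × W × K)) (oo K W) = oo K W := by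
    rw [lamF_spec g.2, hl, one_smul]
  have e2 : ∀ x : W, (g : (K × W × K) ≃ₗ[K] (K × W × K)) (0, x, 0) = (- B x y, x, 0) := by
    intro x
    have hb : blF (g : (K × W × K) ≃ₗ[K] (K × W × K)) x = x :=
      congrArg (fun m : SpG B => (m : W ≃ₗ[K] W) x) h1
    have h3 := form_of g.2 x
    rw [hb] at h3
    have h4 := mem_SpG.mp g.2.1 (0, x, 0) (0, 0, 1)
    rw [h3, e3, hypo_apply, hypo_apply] at h4
    simp only [mul_one, mul_zero, zero_mul, zero_add, map_zero, LinearMap.zero_apply,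
      add_zero] at h4
    rw [h3]
    refine Prod.ext ?_ rfl
    exact eq_neg_of_add_eq_zero_left h4
  have e4 : c = - Q y := by
    have h4 := hg (0, 0, 1)
    rw [e3, hq_apply, hq_apply] at h4
    change c * 1 + Q y = 0 * 1 + Q 0 at h4
    rw [hQ.zero] at h4
    linear_combination h4
  refine ⟨y, LinearEquiv.ext fun u => ?_⟩
  have hu : u = u.1 • oo K W + ((0 : K), u.2.1, (0 : K)) + u.2.2 • ((0 : K), (0 : W), (1 : K)) := by
    refine Prod.ext ?_ (Prod.ext ?_ ?_)
    · change u.1 = u.1 * 1 + 0 + u.2.2 * 0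
      ring
    · change u.2.1 = u.1 • (0 : W) + u.2.1 + u.2.2 • (0 : W)
      rw [smul_zero, smul_zero, zero_add, add_zero]
    · change u.2.2 = u.1 * 0 + 0 + u.2.2 * 1
      ring
  nth_rewrite 1 [hu]
  rw [map_add, map_add, map_smul, map_smul, e1, e2, e3, qe_apply, e4]
  refine Prod.ext ?_ (Prod.ext ?_ ?_)
  · change u.1 * 1 + (- B u.2.1 y) + u.2.2 * (- Q y) = _
    ring
  · change u.1 • (0 : W) + u.2.1 + u.2.2 • y = _
    rw [smul_zero, zero_add]
  · change u.1 * 0 + 0 + u.2.2 * 1 = u.2.2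
    ring

/-! ### ranks -/

theorem rk_qe (y : W) : Even (rk (qe hQ y)) := by
  by_cases hy : y = 0
  · rw [hy, qe_zero, rk_one]
    exact Even.zero
  · obtain ⟨w, hw⟩ := hQ.sm.exists_one hy
    let ι : (K × K) →ₗ[K] (K × W × K) :=
      { toFun := fun s => (s.1, s.2 • y, 0)
        map_add' := fun s t => Prod.ext rfl (Prod.ext (add_smul _ _ _) (add_zero 0).symm)
        map_smul' := fun a s => Prod.ext rfl (Prod.ext (mul_smul _ _ _) (mul_zero a).symm) }
    have hι : Function.Injective ι := by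
      intro s t h
      have h1 : s.1 = t.1 := congrArg (fun u : K × W × K => u.1) h
      have h3 : s.2 • y = t.2 • y := congrArg (fun u : K × W × K => u.2.1) h
      exact Prod.ext h1 (smul_left_injective K hy h3)
    rw [rk_of (qe hQ y) ι hι (fun u => ⟨(- B u.2.1 y - Q y * u.2.2, u.2.2), ?_⟩)
      (fun s => ⟨(0, (- s.1 - Q y * s.2) • w, s.2), ?_⟩)]
    · rw [Module.finrank_prod, finrank_self]
      exact ⟨1, rfl⟩
    · rw [qe_apply]
      refine Prod.ext ?_ (Prod.ext ?_ ?_)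
      · change u.1 - B u.2.1 y - Q y * u.2.2 - u.1 = - B u.2.1 y - Q y * u.2.2
        ring
      · change u.2.1 + u.2.2 • y - u.2.1 = u.2.2 • y
        rw [add_sub_cancel_left]
      · change u.2.2 - u.2.2 = 0
        rw [sub_self]
    · rw [qe_apply]
      refine Prod.ext ?_ (Prod.ext ?_ ?_)
      · change 0 - B ((- s.1 - Q y * s.2) • w) y - Q y * s.2 - 0 = s.1
        rw [map_smul, LinearMap.smul_apply, hQ.symm y w, hw, smul_eq_mul]
        ring
      · change (- s.1 - Q y * s.2) • w + s.2 • y - (- s.1 - Q y * s.2) • w = s.2 • y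
        rw [add_sub_cancel_left]
      · change s.2 - s.2 = 0
        rw [sub_self]

omit hQ in
theorem rk_lv_one (l : Kˣ) : Even (rk (lv (1 : W ≃ₗ[K] W) l)) := by
  by_cases hl : (l : K) = 1
  · have h1 : l = 1 := Units.ext hl
    rw [h1, lv_one, rk_one]
    exact Even.zero
  · have hl' : ((l⁻¹ : Kˣ) : K) - 1 ≠ 0 := by
      intro h
      apply hl
      have h1 : ((l⁻¹ : Kˣ) : K) = 1 := sub_eq_zero.mp h
      have h3 : (l : K) * ((l⁻¹ : Kˣ) : K) = 1 := Units.mul_inv l
      rw [h1, mul_one] at h3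
      exact h3
    have hl0 : (l : K) - 1 ≠ 0 := sub_ne_zero.mpr hl
    let ι : (K × K) →ₗ[K] (K × W × K) :=
      { toFun := fun s => (s.1, 0, s.2)
        map_add' := fun s t => Prod.ext rfl (Prod.ext (add_zero 0).symm rfl)
        map_smul' := fun a s => Prod.ext rfl (Prod.ext (smul_zero a).symm rfl) }
    have hι : Function.Injective ι := by
      intro s t h
      have h1 : s.1 = t.1 := congrArg (fun u : K × W × K => u.1) h
      have h3 : s.2 = t.2 := congrArg (fun u : K × W × K => u.2.2) h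
      exact Prod.ext h1 h3
    rw [rk_of (lv (1 : W ≃ₗ[K] W) l) ι hι
      (fun u => ⟨(((l : K) - 1) * u.1, (((l⁻¹ : Kˣ) : K) - 1) * u.2.2), ?_⟩)
      (fun s => ⟨(((l : K) - 1)⁻¹ * s.1, 0, (((l⁻¹ : Kˣ) : K) - 1)⁻¹ * s.2), ?_⟩)]
    · rw [Module.finrank_prod, finrank_self]
      exact ⟨1, rfl⟩
    · rw [lv_apply]
      refine Prod.ext ?_ (Prod.ext ?_ ?_)
      · change (l : K) * u.1 - u.1 = ((l : K) - 1) * u.1
        ring
      · change u.2.1 - u.2.1 = 0
        rw [sub_self]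
      · change ((l⁻¹ : Kˣ) : K) * u.2.2 - u.2.2 = (((l⁻¹ : Kˣ) : K) - 1) * u.2.2
        ring
    · rw [lv_apply]
      refine Prod.ext ?_ (Prod.ext ?_ ?_)
      · change (l : K) * (((l : K) - 1)⁻¹ * s.1) - ((l : K) - 1)⁻¹ * s.1 = s.1
        have : (l : K) * (((l : K) - 1)⁻¹ * s.1) - ((l : K) - 1)⁻¹ * s.1 =
          (((l : K) - 1) * ((l : K) - 1)⁻¹) * s.1 := by ring
        rw [this, mul_inv_cancel₀ hl0, one_mul]
      · change (0 : W) - 0 = 0
        rw [sub_self]
      · change ((l⁻¹ : Kˣ) : K) * ((((l⁻¹ : Kˣ) : K) - 1)⁻¹ * s.2) -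
          (((l⁻¹ : Kˣ) : K) - 1)⁻¹ * s.2 = s.2
        have : ((l⁻¹ : Kˣ) : K) * ((((l⁻¹ : Kˣ) : K) - 1)⁻¹ * s.2) -
          (((l⁻¹ : Kˣ) : K) - 1)⁻¹ * s.2 =
          ((((l⁻¹ : Kˣ) : K) - 1) * (((l⁻¹ : Kˣ) : K) - 1)⁻¹) * s.2 := by ring
        rw [this, mul_inv_cancel₀ hl', one_mul]

omit hQ in
theorem rk_lv (m : W ≃ₗ[K] W) : rk (lv m 1) = rk m := by
  let ι : LinearMap.range ((m : W →ₗ[K] W) - 1) →ₗ[K] (K × W × K) :=
    { toFun := fun s => (0, (s : W), 0)
      map_add' := fun s t => Prod.ext (add_zero 0).symm (Prod.ext rfl (add_zero 0).symm)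
      map_smul' := fun a s => Prod.ext (mul_zero a).symm (Prod.ext rfl (mul_zero a).symm) }
  have hι : Function.Injective ι := by
    intro s t h
    exact Subtype.ext (congrArg (fun u : K × W × K => u.2.1) h)
  refine rk_of (lv m 1) ι hι (fun u => ⟨⟨m u.2.1 - u.2.1, u.2.1, rfl⟩, ?_⟩) ?_
  · rw [lv_apply]
    refine Prod.ext ?_ (Prod.ext rfl ?_)
    · change ((1 : Kˣ) : K) * u.1 - u.1 = 0
      rw [Units.val_one, one_mul, sub_self]
    · change (((1 : Kˣ)⁻¹ : Kˣ) : K) * u.2.2 - u.2.2 = 0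
      rw [inv_one, Units.val_one, one_mul, sub_self]
  · rintro ⟨_, x, rfl⟩
    refine ⟨(0, x, 0), ?_⟩
    rw [lv_apply]
    refine Prod.ext ?_ (Prod.ext rfl ?_)
    · change ((1 : Kˣ) : K) * 0 - 0 = 0
      rw [mul_zero, sub_zero]
    · change (((1 : Kˣ)⁻¹ : Kˣ) : K) * 0 - 0 = 0
      rw [mul_zero, sub_zero]

end Rad

end Vale.Agent.P180.R2.H667.O2
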