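import Vale.Agent.P180.R2.H667.O2.A

/-!
P180: the Schur multiplier of `Ω(Q)`, `Q` a nondegenerate quadratic form over a finite field `K` of
characteristic two, `|K| > 4`, has odd order.
-/

set_option linter.all false

namespace Vale.Agent.P180.R2.H667.O2

open Subgroup Module
open LinearMap (BilinForm)
open Vale.Agent.P180.R2.H589
open Vale.Agent.P180.R2.H589.Sch
open Vale.Agent.P180.R2.H589.Sp (SpG mem_SpG WW BW BW_apply lv lv_apply lv_mul lv_one lv_inv oo
  oo_ne cj cj_apply cj_mem SM SM.of_index SM.of_equiv SM.of_quot SM.of_not_dvd finite_gl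
  not_dvd_units comm_of_scalars)
open Vale.Agent.P180.R2.H589.Or (Sm hypo hypo_apply hypo_sm splitE splitE_apply splitE_iso BW_sm
  StO mem_StO bl lam bl_apply lam_val lam_spec lv_mem lv_St bl_lv lam_lv blF blF_apply lamF
  lamF_spec form_of thd StX phi phi_apply no_pel)

section Small

variable {K V : Type*} [Field K] [AddCommGroup V] [Module K V] {p : ℕ} [hp : Fact p.Prime]
  [CharP K p]

/-- a unipotent element fixes a nonzero vector -/
theorem exists_fix {g : V ≃ₗ[K] V} (h : Pel p g) (h1 : g ≠ 1) : ∃ v : V, g v = v ∧ v ≠ 0 := by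
  obtain ⟨n, hn⟩ := h
  have hnil := Or.nilp hn
  obtain ⟨N, hN⟩ : ∃ N : Module.End K V, N = (g : V →ₗ[K] V) - 1 := ⟨_, rfl⟩
  rw [← hN] at hnil
  classical
  have hex : ∃ k, N ^ k = 0 := ⟨_, hnil⟩
  obtain ⟨k, hk, hmin⟩ : ∃ k, N ^ k = 0 ∧ ∀ j < k, N ^ j ≠ 0 :=
    ⟨Nat.find hex, Nat.find_spec hex, fun j hj => Nat.find_min hex hj⟩
  have hV : ∃ x : V, x ≠ 0 := by
    by_contra hcon
    push Not at hcon
    exact h1 (LinearEquiv.ext fun x => by rw [hcon x, map_zero, map_zero])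
  have hk1 : 1 ≤ k := by
    by_contra h
    have h3 : k = 0 := by omega
    rw [h3, pow_zero] at hk
    obtain ⟨x, hx⟩ := hV
    have h4 := congrArg (fun f : Module.End K V => f x) hk
    exact hx h4
  obtain ⟨y, hy⟩ : ∃ y, (N ^ (k - 1)) y ≠ 0 := by
    by_contra hcon
    push Not at hcon
    exact hmin (k - 1) (by omega) (LinearMap.ext hcon)
  refine ⟨(N ^ (k - 1)) y, ?_, hy⟩
  have hNv : N ((N ^ (k - 1)) y) = 0 := by
    rw [← Module.End.mul_apply, ← pow_succ']
    have : k - 1 + 1 = k := by omega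
    rw [this, hk, LinearMap.zero_apply]
  have h3 : g ((N ^ (k - 1)) y) - (N ^ (k - 1)) y = 0 := by
    rw [hN] at hNv ⊢
    exact hNv
  exact sub_eq_zero.mp h3

/-- spaces of dimension at most two -/
theorem small_pel [Module.Finite K V] (hd : finrank K V ≤ 2) {Q : V → K}
    {X : Subgroup (V ≃ₗ[K] V)} (hX : Cl Q X) {g : V ≃ₗ[K] V} (hg : g ∈ X) (h : Pel p g) :
    g = 1 := by
  by_contra h1
  obtain ⟨v, hv, hv0⟩ := exists_fix h h1
  exact h1 (rk_le_of_small hd ((hX g).mp hg).2 hv hv0)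

end Small

section Step

variable {K : Type} [Field K] [Finite K] [CharP K 2] {W : Type}
  [AddCommGroup W] [Module K W] [Module.Finite K W] {B : BilinForm K W} {Q : W → K}
  (hQ : Qm B Q) {X : Subgroup ((K × W × K) ≃ₗ[K] (K × W × K))} (hX : Cl (hq Q) X)

include hX in
omit [Finite K] [CharP K 2] [Module.Finite K W] in
theorem qe_X (y : W) : qe hQ y ∈ X := (hX _).mpr ⟨qe_mem hQ y, rk_qe hQ y⟩

include hX in
omit [Finite K] [CharP K 2] [Module.Finite K W] in
theorem qe_memX (y : W) : qe hQ y ∈ StX X B := ⟨qe_X hQ hX y, qe_St hQ y⟩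

include hQ hX in
omit [Finite K] [CharP K 2] [Module.Finite K W] in
theorem lv_memX {m : W ≃ₗ[K] W} (hm : m ∈ OQ Q) (he : Even (rk m)) (l : Kˣ) :
    lv m l ∈ StX X B := by
  have h1 : lv m l = lv m 1 * lv 1 l := by rw [lv_mul, mul_one, one_mul]
  refine ⟨?_, lv_St (OQ_le hQ hm) l⟩
  rw [h1]
  refine Subgroup.mul_mem _ ((hX _).mpr ⟨lvQ_mem hm 1, ?_⟩)
    ((hX _).mpr ⟨lvQ_mem (Subgroup.one_mem _) l, rk_lv_one l⟩)
  rw [rk_lv]
  exact he

include hQ hX in
omit [Finite K] [CharP K 2] [Module.Finite K W] in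
theorem block_mem (g : StX X B) : ((phi X B g).2 : W ≃ₗ[K] W) ∈ OQ Q ∧
    Even (rk ((phi X B g).2 : W ≃ₗ[K] W)) := by
  obtain ⟨m, hm⟩ : ∃ m, m = ((phi X B g).2 : W ≃ₗ[K] W) := ⟨_, rfl⟩
  obtain ⟨l, hl⟩ : ∃ l, l = (phi X B g).1 := ⟨_, rfl⟩
  rw [← hm]
  have hgQ : (g : (K × W × K) ≃ₗ[K] (K × W × K)) ∈ OQ (hq Q) := ((hX _).mp g.2.1).1
  have hmQ : m ∈ OQ Q := by
    intro x
    have h1 := hgQ (0, x, 0)
    rw [form_of g.2.2 x, hq_apply, hq_apply] at h1
    change _ * 0 + Q (blF (g : (K × W × K) ≃ₗ[K] (K × W × K)) x) = 0 * 0 + Q x at h1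
    rw [mul_zero, mul_zero, zero_add, zero_add] at h1
    rw [hm]
    exact h1
  refine ⟨hmQ, ?_⟩
  have hmS := OQ_le hQ hmQ
  -- the radical part
  obtain ⟨y, hy⟩ := exists_qe hQ (g := (⟨lv m l, lv_St hmS l⟩ : StO B)⁻¹ * ⟨g, g.2.2⟩)
    (Subgroup.mul_mem _ (Subgroup.inv_mem _ (lvQ_mem hmQ l)) hgQ)
    (by
      rw [map_mul, map_inv, bl_lv hmS l, inv_mul_eq_one]
      exact Subtype.ext hm)
    (by
      rw [map_mul, map_inv, lam_lv hmS l, inv_mul_eq_one]
      exact hl)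
  have h4 : lv m l = (g : (K × W × K) ≃ₗ[K] (K × W × K)) * (qe hQ y)⁻¹ := by
    rw [← hy]
    change lv m l = (g : (K × W × K) ≃ₗ[K] (K × W × K)) * ((lv m l)⁻¹ * g)⁻¹
    group
  have h5 : lv m l ∈ X := by
    rw [h4]
    exact Subgroup.mul_mem _ g.2.1 (Subgroup.inv_mem _ (qe_X hQ hX y))
  have h6 : lv m 1 ∈ X := by
    have h7 : lv m 1 = lv m l * (lv 1 l)⁻¹ := by
      rw [lv_inv, lv_mul, inv_one, mul_one, mul_inv_cancel]
    rw [h7]
    exact Subgroup.mul_mem _ h5 (Subgroup.inv_mem _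
      ((hX _).mpr ⟨lvQ_mem (Subgroup.one_mem _) l, rk_lv_one l⟩))
  have h7 := ((hX _).mp h6).2
  rwa [rk_lv] at h7

include hQ hX in
theorem SM_range (ih : ∀ Y : Subgroup (W ≃ₗ[K] W), Cl Q Y → SM 2 Y) :
    SM 2 (phi X B).range := by
  haveI : Finite W := Module.finite_of_finite K
  haveI : Finite (W ≃ₗ[K] W) := finite_gl
  haveI : Finite ((K × W × K) ≃ₗ[K] (K × W × K)) := finite_gl
  obtain ⟨D, hD⟩ : ∃ D, D = (phi X B).range := ⟨_, rfl⟩
  rw [← hD]
  have h1 : SM 2 (D.comap (MonoidHom.inr Kˣ (SpG B))) := by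
    refine SM.of_equiv ((D.comap (MonoidHom.inr Kˣ (SpG B))).equivMapOfInjective
      (SpG B).subtype (SpG B).subtype_injective).symm (ih _ fun m => ⟨?_, ?_⟩)
    · rintro ⟨m, hm, rfl⟩
      have h3 : (MonoidHom.inr Kˣ (SpG B)) m ∈ D := hm
      rw [hD] at h3
      obtain ⟨g, hg⟩ := h3
      have h4 : (phi X B g).2 = m := congrArg Prod.snd hg
      have h5 := block_mem hQ hX g
      rw [h4] at h5
      exact h5
    · rintro ⟨hm, he⟩
      refine ⟨⟨m, OQ_le hQ hm⟩, ?_, rfl⟩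
      change MonoidHom.inr Kˣ (SpG B) _ ∈ D
      rw [hD]
      refine ⟨⟨lv m 1, lv_memX hQ hX hm he 1⟩, ?_⟩
      exact Prod.ext (lam_lv (OQ_le hQ hm) 1) rfl
  have h3 : SM 2 ((MonoidHom.fst Kˣ (SpG B)).comp D.subtype).ker := by
    refine SM.of_equiv (G := D.comap (MonoidHom.inr Kˣ (SpG B))) ?_ h1
    exact
      { toFun := fun g => ⟨⟨(1, (g : SpG B)), g.2⟩, rfl⟩
        invFun := fun w => ⟨((w : D) : Kˣ × SpG B).2, by
          have h4 : ((w : D) : Kˣ × SpG B).1 = 1 := MonoidHom.mem_ker.mp w.2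
          change ((1 : Kˣ), ((w : D) : Kˣ × SpG B).2) ∈ D
          rw [← h4]
          exact (w : D).2⟩
        left_inv := fun g => rfl
        right_inv := fun w => Subtype.ext (Subtype.ext
          (Prod.ext (MonoidHom.mem_ker.mp w.2).symm rfl))
        map_mul' := fun g h => Subtype.ext (Subtype.ext (Prod.ext (one_mul 1).symm rfl)) }
  refine SM.of_index ?_ h3
  rw [index_ker]
  intro hd
  exact not_dvd_units (K := K) (p := 2) (hd.trans (card_subgroup_dvd_card _))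

include hQ hX in
theorem SM_StX (hK : 4 < Nat.card K)
    (ih : ∀ Y : Subgroup (W ≃ₗ[K] W), Cl Q Y → SM 2 Y) : SM 2 (StX X B) := by
  haveI : Finite W := Module.finite_of_finite K
  haveI : Finite ((K × W × K) ≃ₗ[K] (K × W × K)) := finite_gl
  obtain ⟨μ, hμ2, hμ1⟩ := Sp.exists_unit_sq (Sp.exists_mu2 (K := K) (by omega))
  have htor : ∀ l : Kˣ, lv (1 : W ≃ₗ[K] W) l ∈ StX X B := fun l =>
    lv_memX hQ hX (Subgroup.one_mem _) (by rw [rk_one]; exact Even.zero) l
  obtain ⟨q, hq'⟩ : ∃ q : W → StX X B,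
      ∀ y, ((q y : StX X B) : (K × W × K) ≃ₗ[K] (K × W × K)) = qe hQ y :=
    ⟨fun y => ⟨qe hQ y, qe_memX hQ hX y⟩, fun y => rfl⟩
  obtain ⟨t, ht⟩ : ∃ t : Kˣ → StX X B,
      ∀ l, ((t l : StX X B) : (K × W × K) ≃ₗ[K] (K × W × K)) = lv 1 l :=
    ⟨fun l => ⟨lv 1 l, htor l⟩, fun y => rfl⟩
  have hqmul : ∀ y y', q y * q y' = q (y + y') := by
    intro y y'
    apply Subtype.ext
    rw [Subgroup.coe_mul, hq', hq', hq', qe_mul hQ]
  have htq : ∀ l y, t l * q y * (t l)⁻¹ = q ((l : K) • y) := by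
    intro l y
    apply Subtype.ext
    rw [Subgroup.coe_mul, Subgroup.coe_mul, Subgroup.coe_inv, hq', hq', ht,
      lv_qe hQ (Subgroup.one_mem _)]
    rfl
  have hqinj : ∀ {y y'}, q y = q y' → y = y' := by
    intro y y' h
    have h3 := congrArg Subtype.val h
    rw [hq', hq'] at h3
    exact qe_inj hQ h3
  have hmem : ∀ g : StX X B, (phi X B).rangeRestrict g = 1 → ∃ y, g = q y := by
    intro g hg
    have h4 : phi X B g = 1 := congrArg Subtype.val hg
    obtain ⟨y, hy⟩ := exists_qe hQ (g := ⟨g, g.2.2⟩) ((hX _).mp g.2.1).1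
      (congrArg Prod.snd h4) (congrArg Prod.fst h4)
    exact ⟨y, Subtype.ext (by rw [hq']; exact hy)⟩
  refine SM.of_quot (phi X B).rangeRestrict (phi X B).rangeRestrict_surjective
    (SM_range hQ hX ih) ?_
  intro E _ _ f hf hk
  obtain ⟨h, hh⟩ := hf (t μ)
  have H1 : ∀ x y, (phi X B).rangeRestrict (f x) = 1 → (phi X B).rangeRestrict (f y) = 1 →
      x * y = y * x := by
    intro x y hx hy
    obtain ⟨a, ha⟩ := hmem _ hx
    obtain ⟨b, hb⟩ := hmem _ hy
    refine comm_of_scalars (K := K) hK hf hk (ρ := fun s => q (s • a))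
      (ρ' := fun s => q (s • b)) (fun s t => ?_) (fun s t => ?_) (fun s t => ?_)
      (fun m hm => ?_) (s := 1) (t := 1) ?_ ?_
    · rw [hqmul, add_smul]
    · rw [hqmul, add_smul]
    · rw [hqmul, hqmul, add_comm]
    · refine ⟨t (Units.mk0 m hm), fun s => ?_, fun s => ?_⟩
      · rw [htq, Units.val_mk0, smul_smul]
      · rw [htq, Units.val_mk0, smul_smul]
    · rw [one_smul]; exact ha
    · rw [one_smul]; exact hb
  refine ⟨h, H1, ?_, ?_⟩
  · intro n hn hnh
    obtain ⟨y, rfl⟩ := hmem n hn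
    rw [hh, eq_comm, ← mul_inv_eq_iff_eq_mul, htq] at hnh
    have h3 := hqinj hnh
    have h4 : ((μ : K) - 1) • y = 0 := by rw [sub_smul, one_smul, h3, sub_self]
    have h5 : y = 0 := (smul_eq_zero.mp h4).resolve_left (sub_ne_zero.mpr hμ1)
    apply Subtype.ext
    rw [hq', h5, qe_zero]
    rfl
  · intro x y hx
    refine H1 x _ hx ?_
    have e1 : (phi X B) (t μ) = (μ, 1) := by
      rw [phi_apply]
      refine Prod.ext ?_ ?_
      · apply Units.ext
        rw [lam_val]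
        change (((t μ : StX X B) : (K × W × K) ≃ₗ[K] (K × W × K)) (oo K W)).1 = _
        rw [ht, lv_apply]
        exact mul_one _
      · apply Subtype.ext
        apply LinearEquiv.ext
        intro x
        rw [bl_apply]
        change (((t μ : StX X B) : (K × W × K) ≃ₗ[K] (K × W × K)) (0, x, 0)).2.1 = x
        rw [ht, lv_apply]
        rfl
    apply Subtype.ext
    change phi X B (f (h⁻¹ * y * h * y⁻¹)) = 1
    rw [map_mul, map_mul, map_mul, map_mul, map_mul, map_mul, map_inv, map_inv, map_inv,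
      map_inv, hh, e1]
    refine Prod.ext ?_ ?_
    · change μ⁻¹ * (phi X B (f y)).1 * μ * (phi X B (f y)).1⁻¹ = 1
      rw [mul_comm μ⁻¹, inv_mul_cancel_right, mul_inv_cancel]
    · change 1⁻¹ * (phi X B (f y)).2 * 1 * (phi X B (f y)).2⁻¹ = 1
      rw [inv_one, one_mul, mul_one, mul_inv_cancel]

include hQ hX in
theorem not_dvd_index_StX (hW : ∃ y : W, y ≠ 0) :
    ¬ 2 ∣ ((StX X B).subgroupOf X).index := by
  haveI : Finite W := Module.finite_of_finite K
  haveI : Finite ((K × W × K) ≃ₗ[K] (K × W × K)) := finite_gl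
  haveI : Fact (Nat.Prime 2) := ⟨Nat.prime_two⟩
  let R : Subgroup X :=
    { carrier := {g | ∃ y, (g : (K × W × K) ≃ₗ[K] (K × W × K)) = qe hQ y}
      one_mem' := ⟨0, (qe_zero hQ).symm⟩
      mul_mem' := by
        rintro g g' ⟨y, hy⟩ ⟨y', hy'⟩
        exact ⟨y + y', by rw [Subgroup.coe_mul, hy, hy', qe_mul hQ]⟩
      inv_mem' := by
        rintro g ⟨y, hy⟩
        exact ⟨-y, by rw [Subgroup.coe_inv, hy, qe_inv hQ]⟩ }
  have hR : IsPGroup 2 R := by
    rw [Bt.isPGroup_iff]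
    rintro g ⟨y, hy⟩
    obtain ⟨n, hn⟩ := qe_pel (p := 2) hQ y
    exact ⟨n, Subtype.ext (by rw [Subgroup.coe_pow, hy, hn]; rfl)⟩
  obtain ⟨S, hS⟩ := hR.exists_le_sylow
  obtain ⟨v, hv, hfix⟩ := Bt.exists_fixed_gen S.isPGroup'
    (fun (s : S) (x : K × W × K) => ((s : X) : (K × W × K) ≃ₗ[K] (K × W × K)) x)
    (fun x => rfl) (fun y z x => rfl)
    (by
      rw [Module.natCard_eq_pow_finrank (K := K)]
      refine dvd_pow Bt.dvd_card_K ?_
      rw [Module.finrank_prod, Module.finrank_prod, Module.finrank_self]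
      omega) (x₀ := (0 : K × W × K)) (fun y => map_zero _)
  have h1 : ∀ y, qe hQ y v = v := fun y =>
    hfix ⟨⟨qe hQ y, (qe_memX hQ hX y).1⟩, hS ⟨y, rfl⟩⟩
  have h3 : v.2.2 = 0 := by
    obtain ⟨y, hy⟩ := hW
    have h4 := congrArg (fun u : K × W × K => u.2.1) (h1 y)
    change v.2.1 + v.2.2 • y = v.2.1 at h4
    exact (smul_eq_zero.mp (add_eq_left.mp h4)).resolve_right hy
  have h4 : v.2.1 = 0 := by
    apply hQ.nd
    intro y
    have h5 := congrArg Prod.fst (h1 y)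
    rw [qe_apply, h3, mul_zero, sub_zero] at h5
    exact sub_eq_self.mp h5
  have h5 : v = v.1 • oo K W := by
    refine Prod.ext (mul_one _).symm (Prod.ext ?_ ?_)
    · rw [h4]
      exact (smul_zero _).symm
    · rw [h3]
      exact (mul_zero _).symm
  have h6 : v.1 ≠ 0 := by
    intro h7
    rw [h7, zero_smul] at h5
    exact hv h5
  have hle : (S : Subgroup X) ≤ (StX X B).subgroupOf X := by
    intro s hs
    refine mem_subgroupOf.mpr ⟨s.2, OQ_le (hq_qm hQ) ((hX _).mp s.2).1, 1, ?_⟩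
    have h7 : ((s : X) : (K × W × K) ≃ₗ[K] (K × W × K)) v = v := hfix ⟨s, hs⟩
    rw [h5, map_smul] at h7
    rw [one_smul]
    exact smul_right_injective _ h6 h7
  intro hd
  exact S.not_dvd_index (hd.trans (index_dvd_of_le hle))

include hQ hX in
theorem SM_step (hK : 4 < Nat.card K)
    (ih : ∀ Y : Subgroup (W ≃ₗ[K] W), Cl Q Y → SM 2 Y) : SM 2 X := by
  haveI : Finite W := Module.finite_of_finite K
  haveI : Fact (Nat.Prime 2) := ⟨Nat.prime_two⟩
  by_cases hW : ∃ y : W, y ≠ 0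
  · refine SM.of_index (not_dvd_index_StX hQ hX hW) ?_
    exact SM.of_equiv (Subgroup.subgroupOfEquivOfLe (inf_le_left : StX X B ≤ X)).symm
      (SM_StX hQ hX hK ih)
  · push Not at hW
    haveI : Subsingleton W := ⟨fun x y => by rw [hW x, hW y]⟩
    refine SM.of_not_dvd (no_pel (p := 2) fun g hg hpg => ?_)
    refine small_pel (p := 2) ?_ hX hg hpg
    rw [Module.finrank_prod, Module.finrank_prod, Module.finrank_self,
      finrank_zero_of_subsingleton]

end Step

/-- **The multiplier of `Ω(Q)`.** -/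
theorem SM_Q {K : Type} [Field K] [Finite K] [CharP K 2] (hK : 4 < Nat.card K)
    {V : Type} [AddCommGroup V] [Module K V] [Module.Finite K V] {B : BilinForm K V} {Q : V → K}
    (hQ : Qm B Q) {X : Subgroup (V ≃ₗ[K] V)} (hX : Cl Q X) : SM 2 X := by
  haveI : Fact (Nat.Prime 2) := ⟨Nat.prime_two⟩
  refine q_ind (K := K) (fun V _ _ Q => ∀ X : Subgroup (V ≃ₗ[K] V), Cl Q X → SM 2 X)
    ?_ ?_ ?_ V B Q hQ X hX
  · intro V _ _ _ B Q hQ h0 X hX
    haveI : Finite V := Module.finite_of_finite K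
    exact SM.of_not_dvd (no_pel (p := 2) fun g hg hpg =>
      small_pel (p := 2) (aniso_le CharTwo.two_eq_zero hQ h0) hX hg hpg)
  · intro W _ _ _ B Q hQ ih X hX
    exact SM_step hQ hX hK ih
  · intro V V' _ _ _ _ _ _ Q Q' e he ih X hX
    have hrk : ∀ g : V ≃ₗ[K] V, rk (cj e g) = rk g := by
      intro g
      let ι : LinearMap.range ((g : V →ₗ[K] V) - 1) →ₗ[K] V' :=
        (e : V →ₗ[K] V').comp (Submodule.subtype _)
      have hι : Function.Injective ι := e.injective.comp Subtype.val_injective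
      refine rk_of (cj e g) ι hι (fun x => ⟨⟨g (e.symm x) - e.symm x, e.symm x, rfl⟩, ?_⟩) ?_
      · rw [cj_apply]
        change e (g (e.symm x)) - x = e (g (e.symm x) - e.symm x)
        rw [map_sub, e.apply_symm_apply]
      · rintro ⟨_, x, rfl⟩
        refine ⟨e x, ?_⟩
        rw [cj_apply, e.symm_apply_apply]
        change e (g x) - e x = e (g x - x)
        rw [map_sub]
    have hOQ : ∀ g : V ≃ₗ[K] V, cj e g ∈ OQ Q' ↔ g ∈ OQ Q := by
      intro g
      constructor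
      · intro h x
        have h1 := h (e x)
        rw [cj_apply, e.symm_apply_apply, he, he] at h1
        exact h1
      · intro h x
        rw [cj_apply, he, h, ← he, e.apply_symm_apply]
    refine SM.of_equiv (G := X.comap (cj e).toMonoidHom) ?_ (ih _ fun g => ?_)
    · exact
        { toFun := fun g => ⟨cj e g, g.2⟩
          invFun := fun g => ⟨(cj e).symm g, by
            change cj e ((cj e).symm (g : V' ≃ₗ[K] V')) ∈ X
            rw [MulEquiv.apply_symm_apply]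
            exact g.2⟩
          left_inv := fun g => Subtype.ext ((cj e).symm_apply_apply g)
          right_inv := fun g => Subtype.ext ((cj e).apply_symm_apply g)
          map_mul' := fun g h => Subtype.ext (map_mul (cj e) (g : V ≃ₗ[K] V) (h : V ≃ₗ[K] V)) }
    · change cj e g ∈ X ↔ _
      rw [hX, hrk, hOQ]

end Vale.Agent.P180.R2.H667.O2
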