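import Vale.Agent.P180.R2.H667.O2.B
import Vale.Agent.P180.R2.H589.Or.Fin
import Vale.Agent.P180.R2.H589.Sp.Main

/-!
P180: finite perfect groups `L` with `L / Z(L)` the orthogonal group `Ω(Q)` over a finite field
`K`, `|K| > 4` even, modulo scalars: the order of `Z(L)` is odd.
-/

set_option linter.all false

namespace Vale.Agent.P180.R2.H667.O2

open Subgroup Module
open LinearMap (BilinForm)
open Vale.Agent.P180.R2.H589.Sch
open Vale.Agent.P180.R2.H589.Sp (SpG mem_SpG SM SM.of_equiv finite_gl Sy det_SpG)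
open Vale.Agent.P180.R2.H589.Or (mkB not_dvd_center_of_SM center_pel)

variable {K : Type} [Field K] [Finite K] {E : Type} [AddCommGroup E] [Module K E]
  [Module.Finite K E]

/-- **Perfect groups with quotient `Ω(Q)` modulo scalars**, `|K| > 4` even: `|Z(L)|` is prime to
`|K|`. -/
theorem coprime_center (heven : Even (Nat.card K)) (hK : 4 < Nat.card K) {B : E → E → K}
    {Q : E → K} (hadd : ∀ x y z, B (x + y) z = B x z + B y z)
    (hsm : ∀ (a : K) x y, B (a • x) y = a * B x y)
    (hnd : ∀ x, (∀ y, B x y = 0) → x = 0)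
    (hQa : ∀ x y, Q (x + y) = Q x + Q y + B x y) (hQs : ∀ (a : K) x, Q (a • x) = a ^ 2 * Q x)
    {X : Subgroup (SpecialLinearGroup K E)}
    (hX : ∀ g : SpecialLinearGroup K E, g ∈ X ↔ (∀ x, Q (g x) = Q x) ∧
      Even (finrank K (LinearMap.range ((g.1 : E →ₗ[K] E) - 1))))
    {L : Type} [Group L] [Finite L] (hL : commutator L = ⊤) (π : X →* L ⧸ center L)
    (hπ : Function.Surjective π)
    (hker : ∀ x : X, π x = 1 → x.1 ∈ center (SpecialLinearGroup K E)) :
    (Nat.card K).Coprime (Nat.card (center L)) := by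
  haveI : Finite E := Module.finite_of_finite K
  haveI : Finite (E ≃ₗ[K] E) := finite_gl
  haveI : Fintype K := Fintype.ofFinite K
  obtain ⟨p, hpc⟩ := CharP.exists K
  obtain ⟨n, hp, hn⟩ := FiniteField.card K p
  rw [← Nat.card_eq_fintype_card] at hn
  have hp2 : p = 2 := by
    rw [hn] at heven
    have h3 := (Nat.even_pow.mp heven).1
    exact (Nat.Prime.even_iff hp).mp h3
  subst hp2
  haveI : Fact (Nat.Prime 2) := ⟨hp⟩
  have hsymm : ∀ x y, B y x = B x y := by
    intro x y
    have h3 := hQa x y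
    have h4 := hQa y x
    rw [add_comm] at h4
    linear_combination h3 - h4
  let B' : BilinForm K E := mkB hadd hsm hsymm
  have hB' : ∀ x y, B' x y = B x y := fun x y => rfl
  have hQ : Qm B' Q := ⟨hQa, hQs, hnd⟩
  have hSy : Sy B' := by
    refine ⟨fun x => ?_, hnd⟩
    rw [hQ.self, CharTwo.two_eq_zero, zero_mul]
  obtain ⟨ι, hι⟩ : ∃ ι : SpecialLinearGroup K E →* (E ≃ₗ[K] E),
      ∀ g, ι g = SpecialLinearGroup.toLinearEquiv g := ⟨_, fun g => rfl⟩
  have hιg : ∀ g : SpecialLinearGroup K E, ∀ x : E, ι g x = g x := by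
    intro g x
    rw [hι]
    rfl
  have hinj : Function.Injective ι := by
    intro g g' h
    apply Subtype.ext
    apply LinearEquiv.ext
    intro x
    have h3 := congrArg (fun e : E ≃ₗ[K] E => e x) h
    simp only [hιg] at h3
    exact h3
  have hCl : Cl Q (X.map ι) := by
    intro g
    constructor
    · rintro ⟨g', hg', rfl⟩
      have h1 := (hX g').mp hg'
      refine ⟨fun x => ?_, ?_⟩
      · rw [hιg]
        exact h1.1 x
      · have h3 : ((ι g' : E ≃ₗ[K] E) : E →ₗ[K] E) = (g'.1 : E →ₗ[K] E) := by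
          rw [hι]
          rfl
        unfold rk
        rw [h3]
        exact h1.2
    · rintro ⟨h1, h3⟩
      have hd : LinearEquiv.det g = 1 := det_SpG hSy (by omega) (OQ_le hQ h1)
      exact ⟨⟨g, hd⟩, (hX _).mpr ⟨h1, h3⟩, LinearEquiv.ext fun x => hιg _ x⟩
  have hSM : SM 2 X :=
    SM.of_equiv (X.equivMapOfInjective ι hinj).symm (SM_Q hK hQ hCl)
  haveI : Finite (SpecialLinearGroup K E) := Finite.of_injective ι hinj
  have h3 := not_dvd_center_of_SM hSM hL hπ (by
    intro hd
    obtain ⟨x, hx⟩ := exists_prime_orderOf_dvd_card' 2 hd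
    have h4 : x ^ 2 = 1 := by rw [← hx]; exact pow_orderOf_eq_one x
    have h5 : ((x : X) : SpecialLinearGroup K E) ^ 2 = 1 :=
      congrArg (fun z : π.ker => ((z : X) : SpecialLinearGroup K E)) h4
    have h6 := center_pel (hker x x.2) h5
    have h7 : x = 1 := Subtype.ext (Subtype.ext h6)
    rw [h7, orderOf_one] at hx
    exact hp.one_lt.ne hx)
  rw [hn]
  exact Nat.Coprime.pow_left _ ((Nat.Prime.coprime_iff_not_dvd hp).mpr h3)

end Vale.Agent.P180.R2.H667.O2
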